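import Mathlib

/-!
# P345: the arithmetic behind the recovery of the exponent
-/

namespace Vale.Agent.P345W

theorem pow_succ_form (c k : ℕ) : ∃ r : ℕ, (c + 1) ^ k = 1 + c * (k + r * c) := by
  induction k with
  | zero => exact ⟨0, by simp⟩
  | succ k ih =>
    obtain ⟨r, hr⟩ := ih
    refine ⟨r + k + c * r, ?_⟩
    rw [pow_succ, hr]
    ring

theorem exps_eq (a k k2 k3 : ℕ) (ha : 2 ≤ a)
    (h : (a * (a ^ (k + 1) + 1)) ^ k3 = a ^ k * (a ^ (k + 1) + 1) ^ k2) : k3 = k ∧ k2 = k := by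
  have hcop : Nat.Coprime a (a ^ (k + 1) + 1) := by
    have h1 : Nat.Coprime (a ^ (k + 1)) (a ^ (k + 1) + 1) := by simp
    exact (Nat.coprime_pow_left_iff (Nat.succ_pos k) a (a ^ (k + 1) + 1)).1 h1
  rw [mul_pow] at h
  have hA : 2 ≤ a ^ (k + 1) + 1 := by
    have : 0 < a ^ (k + 1) := by positivity
    omega
  have h1 : a ^ k3 ∣ a ^ k := by
    have : a ^ k3 ∣ a ^ k * (a ^ (k + 1) + 1) ^ k2 := ⟨_, h.symm⟩
    exact (Nat.Coprime.pow k3 k2 hcop).dvd_of_dvd_mul_right this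
  have h2 : a ^ k ∣ a ^ k3 := by
    have : a ^ k ∣ a ^ k3 * (a ^ (k + 1) + 1) ^ k3 := ⟨_, h⟩
    exact (Nat.Coprime.pow k k3 hcop).dvd_of_dvd_mul_right this
  have e1 : k3 ≤ k := (Nat.pow_dvd_pow_iff_le_right ha).1 h1
  have e2 : k ≤ k3 := (Nat.pow_dvd_pow_iff_le_right ha).1 h2
  have e : k3 = k := le_antisymm e1 e2
  subst e
  have hpos : 0 < a ^ k3 := by positivity
  have h3 := Nat.eq_of_mul_eq_mul_left hpos h
  exact ⟨rfl, (Nat.pow_right_injective hA h3).symm⟩

/-- the core: the four conditions force the exponent -/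
theorem core (b n c q t k k2 k3 : ℕ) (hc : c = n + 1 + t) (h1 : c = (b + 2) ^ k)
    (h2 : 1 + (b + 2) * c * (n + q * ((b + 2) * c)) = (b * c + c + n + t + 2) ^ k2)
    (h3 : c * (1 + (b + 2) * c * (n + q * ((b + 2) * c))) = ((b + 2) ^ 2 * c + b + 2) ^ k3) :
    k = n ∧ 1 + (b + 2) * c * (n + q * ((b + 2) * c)) = ((b + 2) * c + 1) ^ n := by
  have eA : b * c + c + n + t + 2 = (b + 2) * c + 1 := by
    have : n + t + 1 = c := by omega
    calc b * c + c + n + t + 2 = b * c + c + (n + t + 1) + 1 := by ring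
      _ = b * c + c + c + 1 := by rw [this]
      _ = (b + 2) * c + 1 := by ring
  have eB : (b + 2) ^ 2 * c + b + 2 = (b + 2) * ((b + 2) * c + 1) := by ring
  have eM : (b + 2) * c = (b + 2) ^ (k + 1) := by rw [h1]; ring
  rw [eA] at h2
  rw [eB, h2] at h3
  generalize hM : (b + 2) * c = M at *
  have h4 : ((b + 2) * ((b + 2) ^ (k + 1) + 1)) ^ k3
      = (b + 2) ^ k * ((b + 2) ^ (k + 1) + 1) ^ k2 := by
    rw [← h1, ← eM]
    exact h3.symm
  obtain ⟨-, e2⟩ := exps_eq (b + 2) k k2 k3 (by omega) h4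
  subst e2
  obtain ⟨r, hr⟩ := pow_succ_form M k2
  rw [hr] at h2
  have hcpos : 0 < c := by omega
  have hcM : c ≤ M := by
    rw [← hM]
    nlinarith
  have hMpos : 0 < M := by omega
  have h5 : n + q * M = k2 + r * M := by
    have : M * (n + q * M) = M * (k2 + r * M) := by omega
    exact Nat.eq_of_mul_eq_mul_left hMpos this
  have hk : k2 < M := by
    have : k2 < c := by
      rw [h1]
      exact Nat.lt_pow_self (by omega)
    omega
  have hn : n < M := by omega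
  have h6 : n % M = k2 % M := by
    have e1 : (n + q * M) % M = n % M := by simp
    have e2 : (k2 + r * M) % M = k2 % M := by simp
    rw [← e1, ← e2, h5]
  rw [Nat.mod_eq_of_lt hn, Nat.mod_eq_of_lt hk] at h6
  subst h6
  exact ⟨rfl, by rw [hr, h5]⟩

end Vale.Agent.P345W
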