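import Mathlib

/-!
# P345: Diophantine representations, single-fold and finite-fold
-/

namespace Vale.Agent.P345W

open MvPolynomial

/-- The set of witnesses `w ∈ ℕ^m` with `P(a, w) = 0`. -/
def Sol {n m : ℕ} (P : MvPolynomial (Fin n ⊕ Fin m) ℤ) (a : Fin n → ℕ) : Set (Fin m → ℕ) :=
  {w | eval (Sum.elim (fun i => (a i : ℤ)) (fun j => (w j : ℤ))) P = 0}

/-- `P` is a Diophantine representation of `S ⊆ ℕ^n`. -/
def Represents {n m : ℕ} (P : MvPolynomial (Fin n ⊕ Fin m) ℤ) (S : Set (Fin n → ℕ)) : Prop :=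
  ∀ a, a ∈ S ↔ (Sol P a).Nonempty

/-- `S` has a single-fold Diophantine representation. -/
def HasSingleFold {n : ℕ} (S : Set (Fin n → ℕ)) : Prop :=
  ∃ (m : ℕ) (P : MvPolynomial (Fin n ⊕ Fin m) ℤ), Represents P S ∧ ∀ a, (Sol P a).Subsingleton

/-- `S` has a finite-fold Diophantine representation. -/
def HasFiniteFold {n : ℕ} (S : Set (Fin n → ℕ)) : Prop :=
  ∃ (m : ℕ) (P : MvPolynomial (Fin n ⊕ Fin m) ℤ), Represents P S ∧ ∀ a, (Sol P a).Finite

/-- The binary relation: `c` is a power of `a + 2` (the exponent does not occur). -/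
def PowRel : Set (Fin 2 → ℕ) := {v | ∃ k : ℕ, v 1 = (v 0 + 2) ^ k}

/-- The graph of exponentiation with base at least two: `c = (b + 2) ^ n`. -/
def ExpRel : Set (Fin 3 → ℕ) := {v | v 2 = (v 0 + 2) ^ (v 1)}

/-- The full graph of exponentiation `c = b ^ n` (with `0 ^ 0 = 1`). -/
def ExpFull : Set (Fin 3 → ℕ) := {v | v 2 = (v 0) ^ (v 1)}

end Vale.Agent.P345W
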