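import Vale.Agent.P345W.Main

/-!
# P345: from bases at least two to the full graph of exponentiation, and back to the power relation
-/

namespace Vale.Agent.P345W

open MvPolynomial

/-- substitution of polynomials for the parameters and of variables for the witnesses -/
noncomputable def subN {n m : ℕ} {τ : Type} (P : MvPolynomial (Fin n ⊕ Fin m) ℤ)
    (u : Fin n → MvPolynomial τ ℤ) (ι : Fin m → τ) : MvPolynomial τ ℤ :=
  aeval (Sum.elim u (fun i => X (ι i))) P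

theorem eval_subN {n m : ℕ} {τ : Type} (P : MvPolynomial (Fin n ⊕ Fin m) ℤ)
    (u : Fin n → MvPolynomial τ ℤ) (ι : Fin m → τ) (f : τ → ℤ) :
    eval f (subN P u ι) = eval (Sum.elim (fun i => eval f (u i)) (fun i => f (ι i))) P := by
  unfold subN
  induction P using MvPolynomial.induction_on with
  | C a => simp
  | add p q hp hq => simp only [map_add, hp, hq]
  | mul_X p i hp =>
    simp only [map_mul, hp, aeval_X, eval_X]
    congr 1
    rcases i with i | i <;> simp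

theorem mem_Sol_iffN {n m : ℕ} (P : MvPolynomial (Fin n ⊕ Fin m) ℤ) (x : Fin n → ℕ)
    (w : Fin m → ℕ) (x' : Fin n → ℤ) (hx : ∀ i, x' i = x i) :
    eval (Sum.elim x' (fun i => (w i : ℤ))) P = 0 ↔ w ∈ Sol P x := by
  unfold Sol
  have : x' = fun i => (x i : ℤ) := funext hx
  rw [this]
  rfl

theorem core2 (b n c β γ r u : ℕ) (h1 : β + 2 = (b + 2) ^ (n + 1)) (h2 : γ = (β + b + 2) ^ n)
    (h3 : γ = c + r * (β + 2)) (h4 : c + 1 + u = β + 2) : c = b ^ n := by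
  have hlt : b ^ n < β + 2 := by
    rw [h1]
    calc b ^ n ≤ (b + 2) ^ n := Nat.pow_le_pow_left (by omega) n
      _ < (b + 2) ^ (n + 1) := Nat.pow_lt_pow_right (by omega) (by omega)
  have e1 : γ % (β + 2) = c := by
    rw [h3]
    simp only [Nat.add_mul_mod_self_right]
    exact Nat.mod_eq_of_lt (by omega)
  have e2 : γ % (β + 2) = b ^ n := by
    rw [h2, Nat.pow_mod]
    have : (β + b + 2) % (β + 2) = b % (β + 2) := by
      have : β + b + 2 = b + (β + 2) := by ring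
      rw [this]
      simp
    rw [this, ← Nat.pow_mod]
    exact Nat.mod_eq_of_lt hlt
  rw [← e1, e2]

abbrev W2 (m : ℕ) := Fin 4 ⊕ (Fin 2 × Fin m)

abbrev R2 (m : ℕ) := MvPolynomial (Fin 3 ⊕ W2 m) ℤ

/-- the polynomial for the full graph -/
noncomputable def Q2 {m : ℕ} (P : MvPolynomial (Fin 3 ⊕ Fin m) ℤ) : R2 m :=
  (subN P ![X (Sum.inl 0), X (Sum.inl 1) + 1, X (Sum.inr (Sum.inl 0)) + 2]
      (fun i => Sum.inr (Sum.inr (0, i)))) ^ 2
    + (subN P ![X (Sum.inr (Sum.inl 0)) + X (Sum.inl 0), X (Sum.inl 1), X (Sum.inr (Sum.inl 1))]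
      (fun i => Sum.inr (Sum.inr (1, i)))) ^ 2
    + (X (Sum.inr (Sum.inl 1)) - (X (Sum.inl 2)
        + X (Sum.inr (Sum.inl 2)) * (X (Sum.inr (Sum.inl 0)) + 2))) ^ 2
    + (X (Sum.inl 2) + 1 + X (Sum.inr (Sum.inl 3)) - (X (Sum.inr (Sum.inl 0)) + 2)) ^ 2

theorem mem_Q2 {m : ℕ} (P : MvPolynomial (Fin 3 ⊕ Fin m) ℤ) (a : Fin 3 → ℕ) (w : W2 m → ℕ) :
    w ∈ SolG (Q2 P) a ↔
      (fun i => w (Sum.inr (0, i))) ∈ Sol P ![a 0, a 1 + 1, w (Sum.inl 0) + 2] ∧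
      (fun i => w (Sum.inr (1, i))) ∈ Sol P ![w (Sum.inl 0) + a 0, a 1, w (Sum.inl 1)] ∧
      w (Sum.inl 1) = a 2 + w (Sum.inl 2) * (w (Sum.inl 0) + 2) ∧
      a 2 + 1 + w (Sum.inl 3) = w (Sum.inl 0) + 2 := by
  unfold SolG Q2
  simp only [Set.mem_ofPred_eq, map_add, map_pow, eval_subN, four_sq]
  refine and_congr ?_ (and_congr ?_ (and_congr ?_ ?_))
  · exact mem_Sol_iffN P _ (fun i => w (Sum.inr (0, i))) _ (by intro i; fin_cases i <;> simp)
  · exact mem_Sol_iffN P _ (fun i => w (Sum.inr (1, i))) _ (by intro i; fin_cases i <;> simp)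
  · simp only [map_sub, map_add, map_mul, eval_X, Sum.elim_inl, Sum.elim_inr, map_ofNat]
    constructor
    · intro h
      have : (w (Sum.inl 1) : ℤ) = a 2 + w (Sum.inl 2) * (w (Sum.inl 0) + 2) := by linarith
      exact_mod_cast this
    · intro h
      rw [h]
      push_cast
      ring
  · simp only [map_sub, map_add, map_one, eval_X, Sum.elim_inl, Sum.elim_inr, map_ofNat]
    constructor
    · intro h
      have : (a 2 : ℤ) + 1 + w (Sum.inl 3) = w (Sum.inl 0) + 2 := by linarith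
      exact_mod_cast this
    · intro h
      have : (a 2 : ℤ) + 1 + w (Sum.inl 3) = w (Sum.inl 0) + 2 := by exact_mod_cast h
      linarith

theorem exp_of_sol {m : ℕ} {P : MvPolynomial (Fin 3 ⊕ Fin m) ℤ} (hrep : Represents P ExpRel)
    {x y z : ℕ} {w : Fin m → ℕ} (h : w ∈ Sol P ![x, y, z]) : z = (x + 2) ^ y := by
  have := (hrep ![x, y, z]).2 ⟨w, h⟩
  simpa [ExpRel] using this

theorem sol_of_exp {m : ℕ} {P : MvPolynomial (Fin 3 ⊕ Fin m) ℤ} (hrep : Represents P ExpRel)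
    (x y z : ℕ) (h : z = (x + 2) ^ y) : ∃ w : Fin m → ℕ, w ∈ Sol P ![x, y, z] :=
  (hrep ![x, y, z]).1 (by simpa [ExpRel] using h)

theorem sound2 {m : ℕ} {P : MvPolynomial (Fin 3 ⊕ Fin m) ℤ} (hrep : Represents P ExpRel)
    (a : Fin 3 → ℕ) (w : W2 m → ℕ) (hw : w ∈ SolG (Q2 P) a) :
    a 2 = (a 0) ^ (a 1) ∧ w (Sum.inl 0) + 2 = (a 0 + 2) ^ (a 1 + 1) ∧
      w (Sum.inl 1) = (w (Sum.inl 0) + a 0 + 2) ^ (a 1) := by
  obtain ⟨h0, h1, h2, h3⟩ := (mem_Q2 P a w).1 hw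
  have g0 := exp_of_sol hrep h0
  have g1 := exp_of_sol hrep h1
  exact ⟨core2 _ _ _ _ _ _ _ g0 g1 h2 h3, g0, g1⟩

theorem complete2 {m : ℕ} {P : MvPolynomial (Fin 3 ⊕ Fin m) ℤ} (hrep : Represents P ExpRel)
    (a : Fin 3 → ℕ) (ha : a 2 = (a 0) ^ (a 1)) : (SolG (Q2 P) a).Nonempty := by
  have h2le : 2 ≤ (a 0 + 2) ^ (a 1 + 1) := by
    calc 2 ≤ a 0 + 2 := by omega
      _ = (a 0 + 2) ^ 1 := by ring
      _ ≤ (a 0 + 2) ^ (a 1 + 1) := Nat.pow_le_pow_right (by omega) (by omega)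
  obtain ⟨β, hβ⟩ : ∃ β, β + 2 = (a 0 + 2) ^ (a 1 + 1) := ⟨(a 0 + 2) ^ (a 1 + 1) - 2, by omega⟩
  have hlt : a 2 < β + 2 := by
    rw [hβ, ha]
    calc (a 0) ^ (a 1) ≤ (a 0 + 2) ^ (a 1) := Nat.pow_le_pow_left (by omega) _
      _ < (a 0 + 2) ^ (a 1 + 1) := Nat.pow_lt_pow_right (by omega) (by omega)
  obtain ⟨u, hu⟩ : ∃ u, a 2 + 1 + u = β + 2 := ⟨β + 2 - a 2 - 1, by omega⟩
  have hmod : (β + a 0 + 2) ^ (a 1) % (β + 2) = a 2 := by
    rw [Nat.pow_mod]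
    have : (β + a 0 + 2) % (β + 2) = a 0 % (β + 2) := by
      have : β + a 0 + 2 = a 0 + (β + 2) := by ring
      rw [this]
      simp
    rw [this, ← Nat.pow_mod, ← ha]
    exact Nat.mod_eq_of_lt hlt
  have hr : (β + a 0 + 2) ^ (a 1) = a 2 + ((β + a 0 + 2) ^ (a 1) / (β + 2)) * (β + 2) := by
    have := Nat.mod_add_div ((β + a 0 + 2) ^ (a 1)) (β + 2)
    rw [hmod] at this
    rw [mul_comm] at this
    exact this.symm
  obtain ⟨w0, h0⟩ := sol_of_exp hrep (a 0) (a 1 + 1) (β + 2) hβ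
  obtain ⟨w1, h1⟩ := sol_of_exp hrep (β + a 0) (a 1) ((β + a 0 + 2) ^ (a 1)) rfl
  refine ⟨Sum.elim ![β, (β + a 0 + 2) ^ (a 1), (β + a 0 + 2) ^ (a 1) / (β + 2), u]
    (fun p => ![w0, w1] p.1 p.2), (mem_Q2 P a _).2 ?_⟩
  exact ⟨h0, h1, hr, hu⟩

theorem sol_subset2 {m : ℕ} {P : MvPolynomial (Fin 3 ⊕ Fin m) ℤ} (hrep : Represents P ExpRel)
    (a : Fin 3 → ℕ) : ∃ (x0 : Fin 4 → ℕ) (p0 p1 : Fin 3 → ℕ), SolG (Q2 P) a ⊆
      {w | (∀ i, w (Sum.inl i) = x0 i) ∧ (fun i => w (Sum.inr (0, i))) ∈ Sol P p0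
        ∧ (fun i => w (Sum.inr (1, i))) ∈ Sol P p1} := by
  by_cases hne : (SolG (Q2 P) a).Nonempty
  · obtain ⟨v, hv⟩ := hne
    refine ⟨fun i => v (Sum.inl i), ![a 0, a 1 + 1, v (Sum.inl 0) + 2],
      ![v (Sum.inl 0) + a 0, a 1, v (Sum.inl 1)], ?_⟩
    intro w hw
    obtain ⟨-, v0, v1⟩ := sound2 hrep a v hv
    obtain ⟨-, w0, w1⟩ := sound2 hrep a w hw
    obtain ⟨-, -, g2, g3⟩ := (mem_Q2 P a v).1 hv
    obtain ⟨h0, h1, h2, h3⟩ := (mem_Q2 P a w).1 hw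
    have e0 : w (Sum.inl 0) = v (Sum.inl 0) := by omega
    have e1 : w (Sum.inl 1) = v (Sum.inl 1) := by rw [w1, v1, e0]
    have e3 : w (Sum.inl 3) = v (Sum.inl 3) := by omega
    have e2 : w (Sum.inl 2) = v (Sum.inl 2) := by
      rw [e0, e1, g2] at h2
      have : v (Sum.inl 2) * (v (Sum.inl 0) + 2) = w (Sum.inl 2) * (v (Sum.inl 0) + 2) := by omega
      exact (Nat.eq_of_mul_eq_mul_right (by omega) this).symm
    rw [e0] at h0
    rw [e0, e1] at h1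
    refine ⟨?_, h0, h1⟩
    intro i
    fin_cases i
    · exact e0
    · exact e1
    · exact e2
    · exact e3
  · refine ⟨fun _ => 0, fun _ => 0, fun _ => 0, ?_⟩
    intro w hw
    exact absurd ⟨w, hw⟩ hne

theorem full_singleFold (h : HasSingleFold ExpRel) : HasSingleFold ExpFull := by
  obtain ⟨m, P, hrep, hs⟩ := h
  refine hasSF_of (Q2 P) ExpFull (fun a => ⟨fun ha => complete2 hrep a ha, ?_⟩) ?_
  · rintro ⟨w, hw⟩
    exact (sound2 hrep a w hw).1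
  · intro a w hw w' hw'
    obtain ⟨x0, p0, p1, hsub⟩ := sol_subset2 hrep a
    obtain ⟨a1, a2, a3⟩ := hsub hw
    obtain ⟨b1, b2, b3⟩ := hsub hw'
    have e0 := hs _ a2 b2
    have e1 := hs _ a3 b3
    funext s
    rcases s with i | ⟨j, i⟩
    · exact (a1 i).trans (b1 i).symm
    · fin_cases j
      · exact congr_fun e0 i
      · exact congr_fun e1 i

theorem full_finiteFold (h : HasFiniteFold ExpRel) : HasFiniteFold ExpFull := by
  obtain ⟨m, P, hrep, hs⟩ := h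
  refine hasFF_of (Q2 P) ExpFull (fun a => ⟨fun ha => complete2 hrep a ha, ?_⟩) ?_
  · rintro ⟨w, hw⟩
    exact (sound2 hrep a w hw).1
  · intro a
    obtain ⟨x0, p0, p1, hsub⟩ := sol_subset2 hrep a
    let T : W2 m → Set ℕ := Sum.elim (fun i => {x0 i})
      (fun p => (fun v : Fin m → ℕ => v p.2) '' (![Sol P p0, Sol P p1] p.1))
    have hT : ∀ s, (T s).Finite := by
      intro s
      rcases s with i | ⟨j, i⟩
      · simp [T]
      · fin_cases j
        · exact (hs _).image _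
        · exact (hs _).image _
    refine (Set.Finite.pi' hT).subset ?_
    intro w hw
    obtain ⟨a1, a2, a3⟩ := hsub hw
    intro s
    rcases s with i | ⟨j, i⟩
    · exact a1 i
    · fin_cases j
      · exact ⟨_, a2, rfl⟩
      · exact ⟨_, a3, rfl⟩

/-! ## back to the power relation -/

abbrev W3 (m : ℕ) := Fin 1 ⊕ Fin m

noncomputable def Q3 {m : ℕ} (P : MvPolynomial (Fin 3 ⊕ Fin m) ℤ) :
    MvPolynomial (Fin 2 ⊕ W3 m) ℤ :=
  subN P ![X (Sum.inl 0) + 2, X (Sum.inr (Sum.inl 0)), X (Sum.inl 1)] (fun i => Sum.inr (Sum.inr i))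

theorem mem_Q3 {m : ℕ} (P : MvPolynomial (Fin 3 ⊕ Fin m) ℤ) (a : Fin 2 → ℕ) (w : W3 m → ℕ) :
    w ∈ SolG (Q3 P) a ↔ (fun i => w (Sum.inr i)) ∈ Sol P ![a 0 + 2, w (Sum.inl 0), a 1] := by
  unfold SolG Q3
  simp only [Set.mem_ofPred_eq, eval_subN]
  exact mem_Sol_iffN P _ (fun i => w (Sum.inr i)) _ (by intro i; fin_cases i <;> simp)

theorem q3_exp {m : ℕ} {P : MvPolynomial (Fin 3 ⊕ Fin m) ℤ} (hrep : Represents P ExpFull)
    (a : Fin 2 → ℕ) (w : W3 m → ℕ) (hw : w ∈ SolG (Q3 P) a) : a 1 = (a 0 + 2) ^ (w (Sum.inl 0)) := by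
  have := (hrep _).2 ⟨_, (mem_Q3 P a w).1 hw⟩
  simpa [ExpFull] using this

theorem q3_rep {m : ℕ} {P : MvPolynomial (Fin 3 ⊕ Fin m) ℤ} (hrep : Represents P ExpFull)
    (a : Fin 2 → ℕ) : a ∈ PowRel ↔ (SolG (Q3 P) a).Nonempty := by
  constructor
  · rintro ⟨k, hk⟩
    obtain ⟨w, hw⟩ := (hrep ![a 0 + 2, k, a 1]).1 (by simpa [ExpFull] using hk)
    exact ⟨Sum.elim (fun _ => k) w, (mem_Q3 P a _).2 hw⟩
  · rintro ⟨w, hw⟩
    exact ⟨_, q3_exp hrep a w hw⟩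

theorem q3_k {m : ℕ} {P : MvPolynomial (Fin 3 ⊕ Fin m) ℤ} (hrep : Represents P ExpFull)
    (a : Fin 2 → ℕ) (w w' : W3 m → ℕ) (hw : w ∈ SolG (Q3 P) a) (hw' : w' ∈ SolG (Q3 P) a) :
    w (Sum.inl 0) = w' (Sum.inl 0) := by
  have h1 := q3_exp hrep a w hw
  have h2 := q3_exp hrep a w' hw'
  rw [h1] at h2
  exact Nat.pow_right_injective (by omega) h2

theorem pow_singleFold (h : HasSingleFold ExpFull) : HasSingleFold PowRel := by
  obtain ⟨m, P, hrep, hs⟩ := h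
  refine hasSF_of (Q3 P) PowRel (q3_rep hrep) ?_
  intro a w hw w' hw'
  have hk := q3_k hrep a w w' hw hw'
  have h1 := (mem_Q3 P a w).1 hw
  have h2 := (mem_Q3 P a w').1 hw'
  rw [← hk] at h2
  have e := hs _ h1 h2
  funext s
  rcases s with i | i
  · fin_cases i
    exact hk
  · exact congr_fun e i

theorem pow_finiteFold (h : HasFiniteFold ExpFull) : HasFiniteFold PowRel := by
  obtain ⟨m, P, hrep, hs⟩ := h
  refine hasFF_of (Q3 P) PowRel (q3_rep hrep) ?_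
  intro a
  by_cases hne : (SolG (Q3 P) a).Nonempty
  · obtain ⟨v, hv⟩ := hne
    let T : W3 m → Set ℕ := Sum.elim (fun _ => {v (Sum.inl 0)})
      (fun i => (fun u : Fin m → ℕ => u i) '' (Sol P ![a 0 + 2, v (Sum.inl 0), a 1]))
    have hT : ∀ s, (T s).Finite := by
      intro s
      rcases s with i | i
      · simp [T]
      · exact (hs _).image _
    refine (Set.Finite.pi' hT).subset ?_
    intro w hw
    have hk := q3_k hrep a w v hw hv
    have h1 := (mem_Q3 P a w).1 hw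
    rw [hk] at h1
    intro s
    rcases s with i | i
    · fin_cases i
      exact hk
    · exact ⟨_, h1, rfl⟩
  · rw [Set.not_nonempty_iff_eq_empty] at hne
    rw [hne]
    exact Set.finite_empty

end Vale.Agent.P345W
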