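import Vale.Agent.P345W.Plumb
import Vale.Agent.P345W.Arith

/-!
# P345: from the relation `c is a power of a + 2` to the graph of exponentiation
-/

namespace Vale.Agent.P345W

open MvPolynomial

/-- index type of the new witnesses: `q`, `t` and three copies of the old witnesses -/
abbrev Wt (m : ℕ) := Fin 2 ⊕ (Fin 3 × Fin m)

abbrev Rg (m : ℕ) := MvPolynomial (Fin 3 ⊕ Wt m) ℤ

noncomputable def vb (m : ℕ) : Rg m := X (Sum.inl 0)
noncomputable def vn (m : ℕ) : Rg m := X (Sum.inl 1)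
noncomputable def vc (m : ℕ) : Rg m := X (Sum.inl 2)
noncomputable def vq (m : ℕ) : Rg m := X (Sum.inr (Sum.inl 0))
noncomputable def vt (m : ℕ) : Rg m := X (Sum.inr (Sum.inl 1))
noncomputable def vM (m : ℕ) : Rg m := (vb m + 2) * vc m
noncomputable def vX (m : ℕ) : Rg m := 1 + vM m * (vn m + vq m * vM m)

/-- the new polynomial -/
noncomputable def Qp {m : ℕ} (P : MvPolynomial (Fin 2 ⊕ Fin m) ℤ) : Rg m :=
  (sub P (vb m) (vc m) (fun i => Sum.inr (Sum.inr (0, i)))) ^ 2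
    + (sub P (vb m * vc m + vc m + vn m + vt m) (vX m) (fun i => Sum.inr (Sum.inr (1, i)))) ^ 2
    + (sub P ((vb m + 2) ^ 2 * vc m + vb m) (vc m * vX m) (fun i => Sum.inr (Sum.inr (2, i)))) ^ 2
    + (vc m - (vn m + 1 + vt m)) ^ 2

/-- the value of `X` -/
def Xv (a : Fin 3 → ℕ) (q : ℕ) : ℕ := 1 + (a 0 + 2) * a 2 * (a 1 + q * ((a 0 + 2) * a 2))

theorem mem_Qp {m : ℕ} (P : MvPolynomial (Fin 2 ⊕ Fin m) ℤ) (a : Fin 3 → ℕ) (w : Wt m → ℕ) :
    w ∈ SolG (Qp P) a ↔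
      (fun i => w (Sum.inr (0, i))) ∈ Sol P ![a 0, a 2] ∧
      (fun i => w (Sum.inr (1, i))) ∈
        Sol P ![a 0 * a 2 + a 2 + a 1 + w (Sum.inl 1), Xv a (w (Sum.inl 0))] ∧
      (fun i => w (Sum.inr (2, i))) ∈
        Sol P ![(a 0 + 2) ^ 2 * a 2 + a 0, a 2 * Xv a (w (Sum.inl 0))] ∧
      a 2 = a 1 + 1 + w (Sum.inl 1) := by
  unfold SolG Qp
  simp only [Set.mem_ofPred_eq, map_add, map_pow, eval_sub, four_sq]
  refine and_congr ?_ (and_congr ?_ (and_congr ?_ ?_))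
  · exact mem_Sol_iff P _ _ (fun i => w (Sum.inr (0, i))) _ _ (by simp [vb]) (by simp [vc])
  · exact mem_Sol_iff P _ _ (fun i => w (Sum.inr (1, i))) _ _
      (by simp [vb, vc, vn, vt]) (by simp [vX, vM, vb, vc, vn, vq, Xv])
  · exact mem_Sol_iff P _ _ (fun i => w (Sum.inr (2, i))) _ _
      (by simp [vb, vc]) (by simp [vX, vM, vb, vc, vn, vq, Xv])
  · simp only [vc, vn, vt, map_sub, map_add, map_one, eval_X, Sum.elim_inl, Sum.elim_inr]
    constructor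
    · intro h
      have : (a 2 : ℤ) = a 1 + 1 + w (Sum.inl 1) := by linarith
      exact_mod_cast this
    · intro h
      rw [h]
      push_cast
      ring

theorem pow_of_sol {m : ℕ} {P : MvPolynomial (Fin 2 ⊕ Fin m) ℤ} (hrep : Represents P PowRel)
    {x y : ℕ} {w : Fin m → ℕ} (h : w ∈ Sol P ![x, y]) : ∃ k : ℕ, y = (x + 2) ^ k := by
  have := (hrep ![x, y]).2 ⟨w, h⟩
  simpa [PowRel] using this

theorem sol_of_pow {m : ℕ} {P : MvPolynomial (Fin 2 ⊕ Fin m) ℤ} (hrep : Represents P PowRel)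
    (x y k : ℕ) (h : y = (x + 2) ^ k) : ∃ w : Fin m → ℕ, w ∈ Sol P ![x, y] :=
  (hrep ![x, y]).1 (by simpa [PowRel] using ⟨k, h⟩)

/-- soundness -/
theorem sound {m : ℕ} {P : MvPolynomial (Fin 2 ⊕ Fin m) ℤ} (hrep : Represents P PowRel)
    (a : Fin 3 → ℕ) (w : Wt m → ℕ) (hw : w ∈ SolG (Qp P) a) :
    a 2 = (a 0 + 2) ^ (a 1) ∧ Xv a (w (Sum.inl 0)) = ((a 0 + 2) * a 2 + 1) ^ (a 1) := by
  obtain ⟨h0, h1, h2, h3⟩ := (mem_Qp P a w).1 hw
  obtain ⟨k, hk⟩ := pow_of_sol hrep h0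
  obtain ⟨k2, hk2⟩ := pow_of_sol hrep h1
  obtain ⟨k3, hk3⟩ := pow_of_sol hrep h2
  obtain ⟨e, hX⟩ := core (a 0) (a 1) (a 2) (w (Sum.inl 0)) (w (Sum.inl 1)) k k2 k3 h3 hk hk2 hk3
  subst e
  exact ⟨hk, hX⟩

/-- completeness -/
theorem complete {m : ℕ} {P : MvPolynomial (Fin 2 ⊕ Fin m) ℤ} (hrep : Represents P PowRel)
    (a : Fin 3 → ℕ) (ha : a 2 = (a 0 + 2) ^ (a 1)) : (SolG (Qp P) a).Nonempty := by
  have hlt : a 1 < a 2 := by
    rw [ha]
    exact Nat.lt_pow_self (by omega)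
  obtain ⟨t, ht⟩ : ∃ t, a 2 = a 1 + 1 + t := ⟨a 2 - a 1 - 1, by omega⟩
  obtain ⟨q, hq⟩ := pow_succ_form ((a 0 + 2) * a 2) (a 1)
  have hX : Xv a q = ((a 0 + 2) * a 2 + 1) ^ (a 1) := by
    rw [hq]
    rfl
  have eA : a 0 * a 2 + a 2 + a 1 + t + 2 = (a 0 + 2) * a 2 + 1 := by
    have : a 1 + t + 1 = a 2 := by omega
    calc a 0 * a 2 + a 2 + a 1 + t + 2 = a 0 * a 2 + a 2 + (a 1 + t + 1) + 1 := by ring
      _ = a 0 * a 2 + a 2 + a 2 + 1 := by rw [this]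
      _ = (a 0 + 2) * a 2 + 1 := by ring
  obtain ⟨w0, h0⟩ := sol_of_pow hrep (a 0) (a 2) (a 1) ha
  obtain ⟨w1, h1⟩ := sol_of_pow hrep (a 0 * a 2 + a 2 + a 1 + t) (Xv a q) (a 1) (by rw [eA, hX])
  obtain ⟨w2, h2⟩ := sol_of_pow hrep ((a 0 + 2) ^ 2 * a 2 + a 0) (a 2 * Xv a q) (a 1) (by
    have eB : (a 0 + 2) ^ 2 * a 2 + a 0 + 2 = (a 0 + 2) * ((a 0 + 2) * a 2 + 1) := by ring
    rw [eB, hX, mul_pow, ← ha])
  refine ⟨Sum.elim ![q, t] (fun p => ![w0, w1, w2] p.1 p.2), (mem_Qp P a _).2 ?_⟩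
  exact ⟨h0, h1, h2, ht⟩

/-- the canonical sets in which the components of a witness lie -/
theorem sol_subset {m : ℕ} {P : MvPolynomial (Fin 2 ⊕ Fin m) ℤ} (hrep : Represents P PowRel)
    (a : Fin 3 → ℕ) : ∃ (q0 t0 : ℕ) (p1 p2 : Fin 2 → ℕ), SolG (Qp P) a ⊆
      {w | w (Sum.inl 0) = q0 ∧ w (Sum.inl 1) = t0 ∧ (fun i => w (Sum.inr (0, i))) ∈ Sol P ![a 0, a 2]
        ∧ (fun i => w (Sum.inr (1, i))) ∈ Sol P p1 ∧ (fun i => w (Sum.inr (2, i))) ∈ Sol P p2} := by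
  by_cases hne : (SolG (Qp P) a).Nonempty
  · obtain ⟨v, hv⟩ := hne
    refine ⟨v (Sum.inl 0), v (Sum.inl 1),
      ![a 0 * a 2 + a 2 + a 1 + v (Sum.inl 1), Xv a (v (Sum.inl 0))],
      ![(a 0 + 2) ^ 2 * a 2 + a 0, a 2 * Xv a (v (Sum.inl 0))], ?_⟩
    intro w hw
    obtain ⟨-, hXv⟩ := sound hrep a v hv
    obtain ⟨-, hXw⟩ := sound hrep a w hw
    obtain ⟨-, -, -, g3⟩ := (mem_Qp P a v).1 hv
    obtain ⟨h0, h1, h2, h3⟩ := (mem_Qp P a w).1 hw
    have et : w (Sum.inl 1) = v (Sum.inl 1) := by omega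
    have eq : w (Sum.inl 0) = v (Sum.inl 0) := by
      have hX : Xv a (w (Sum.inl 0)) = Xv a (v (Sum.inl 0)) := by rw [hXv, hXw]
      unfold Xv at hX
      have hM : 0 < (a 0 + 2) * a 2 := by
        have : 0 < a 2 := by omega
        positivity
      generalize (a 0 + 2) * a 2 = M at *
      have h4 : M * (a 1 + w (Sum.inl 0) * M) = M * (a 1 + v (Sum.inl 0) * M) := by omega
      have h5 := Nat.eq_of_mul_eq_mul_left hM h4
      have h6 : w (Sum.inl 0) * M = v (Sum.inl 0) * M := by omega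
      exact Nat.eq_of_mul_eq_mul_right hM h6
    rw [et, eq] at h1
    rw [eq] at h2
    exact ⟨eq, et, h0, h1, h2⟩
  · refine ⟨0, 0, ![0, 0], ![0, 0], ?_⟩
    intro w hw
    exact absurd ⟨w, hw⟩ hne

theorem exp_singleFold (h : HasSingleFold PowRel) : HasSingleFold ExpRel := by
  obtain ⟨m, P, hrep, hs⟩ := h
  refine hasSF_of (Qp P) ExpRel (fun a => ⟨fun ha => complete hrep a ha, ?_⟩) ?_
  · rintro ⟨w, hw⟩
    exact (sound hrep a w hw).1
  · intro a w hw w' hw'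
    obtain ⟨q0, t0, p1, p2, hsub⟩ := sol_subset hrep a
    obtain ⟨a1, a2, a3, a4, a5⟩ := hsub hw
    obtain ⟨b1, b2, b3, b4, b5⟩ := hsub hw'
    have e0 := hs _ a3 b3
    have e1 := hs _ a4 b4
    have e2 := hs _ a5 b5
    funext s
    rcases s with i | ⟨j, i⟩
    · fin_cases i
      · exact a1.trans b1.symm
      · exact a2.trans b2.symm
    · fin_cases j
      · exact congr_fun e0 i
      · exact congr_fun e1 i
      · exact congr_fun e2 i

theorem exp_finiteFold (h : HasFiniteFold PowRel) : HasFiniteFold ExpRel := by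
  obtain ⟨m, P, hrep, hs⟩ := h
  refine hasFF_of (Qp P) ExpRel (fun a => ⟨fun ha => complete hrep a ha, ?_⟩) ?_
  · rintro ⟨w, hw⟩
    exact (sound hrep a w hw).1
  · intro a
    obtain ⟨q0, t0, p1, p2, hsub⟩ := sol_subset hrep a
    let T : Wt m → Set ℕ := Sum.elim ![{q0}, {t0}]
      (fun p => (fun v : Fin m → ℕ => v p.2) '' (![Sol P ![a 0, a 2], Sol P p1, Sol P p2] p.1))
    have hT : ∀ s, (T s).Finite := by
      intro s
      rcases s with i | ⟨j, i⟩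
      · fin_cases i <;> simp [T]
      · fin_cases j
        · exact (hs _).image _
        · exact (hs _).image _
        · exact (hs _).image _
    refine (Set.Finite.pi' hT).subset ?_
    intro w hw
    obtain ⟨a1, a2, a3, a4, a5⟩ := hsub hw
    intro s
    rcases s with i | ⟨j, i⟩
    · fin_cases i
      · exact a1
      · exact a2
    · fin_cases j
      · exact ⟨_, a3, rfl⟩
      · exact ⟨_, a4, rfl⟩
      · exact ⟨_, a5, rfl⟩

end Vale.Agent.P345W
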