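import Vale.Agent.P345W.Defs

/-!
# P345: witnesses indexed by an arbitrary finite type, and substitution
-/

namespace Vale.Agent.P345W

open MvPolynomial

/-- witnesses indexed by an arbitrary type -/
def SolG {n : ℕ} {σ : Type} (P : MvPolynomial (Fin n ⊕ σ) ℤ) (a : Fin n → ℕ) : Set (σ → ℕ) :=
  {w | eval (Sum.elim (fun i => (a i : ℤ)) (fun j => (w j : ℤ))) P = 0}

theorem transfer {n : ℕ} {σ : Type} [Fintype σ] (P : MvPolynomial (Fin n ⊕ σ) ℤ) :
    ∃ (m : ℕ) (P' : MvPolynomial (Fin n ⊕ Fin m) ℤ) (e : σ ≃ Fin m),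
      ∀ a w, w ∈ Sol P' a ↔ (w ∘ e) ∈ SolG P a := by
  refine ⟨Fintype.card σ, rename (Sum.map id (Fintype.equivFin σ)) P, Fintype.equivFin σ, ?_⟩
  intro a w
  unfold Sol SolG
  simp only [Set.mem_ofPred_eq, eval_rename]
  have : (Sum.elim (fun i => (a i : ℤ)) (fun j => (w j : ℤ))) ∘ Sum.map id (Fintype.equivFin σ)
      = Sum.elim (fun i => (a i : ℤ)) (fun j => (((w ∘ (Fintype.equivFin σ)) j : ℕ) : ℤ)) := by
    funext s
    rcases s with i | j <;> simp
  rw [this]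

theorem hasSF_of {n : ℕ} {σ : Type} [Fintype σ] (P : MvPolynomial (Fin n ⊕ σ) ℤ)
    (S : Set (Fin n → ℕ)) (hrep : ∀ a, a ∈ S ↔ (SolG P a).Nonempty)
    (hs : ∀ a, (SolG P a).Subsingleton) : HasSingleFold S := by
  obtain ⟨m, P', e, h⟩ := transfer P
  refine ⟨m, P', ?_, ?_⟩
  · intro a
    rw [hrep a]
    constructor
    · rintro ⟨v, hv⟩
      refine ⟨v ∘ e.symm, (h a _).2 ?_⟩
      have : (v ∘ e.symm) ∘ e = v := by funext s; simp
      rw [this]
      exact hv
    · rintro ⟨w, hw⟩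
      exact ⟨w ∘ e, (h a w).1 hw⟩
  · intro a w1 h1 w2 h2
    have := hs a ((h a w1).1 h1) ((h a w2).1 h2)
    exact e.surjective.injective_comp_right this

theorem hasFF_of {n : ℕ} {σ : Type} [Fintype σ] (P : MvPolynomial (Fin n ⊕ σ) ℤ)
    (S : Set (Fin n → ℕ)) (hrep : ∀ a, a ∈ S ↔ (SolG P a).Nonempty)
    (hs : ∀ a, (SolG P a).Finite) : HasFiniteFold S := by
  obtain ⟨m, P', e, h⟩ := transfer P
  refine ⟨m, P', ?_, ?_⟩
  · intro a
    rw [hrep a]
    constructor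
    · rintro ⟨v, hv⟩
      refine ⟨v ∘ e.symm, (h a _).2 ?_⟩
      have : (v ∘ e.symm) ∘ e = v := by funext s; simp
      rw [this]
      exact hv
    · rintro ⟨w, hw⟩
      exact ⟨w ∘ e, (h a w).1 hw⟩
  · intro a
    have h1 : Sol P' a = (fun w : Fin m → ℕ => w ∘ e) ⁻¹' SolG P a := by
      ext w
      exact h a w
    rw [h1]
    exact (hs a).preimage (e.surjective.injective_comp_right.injOn)

/-- substitution of two polynomials for the parameters and of variables for the witnesses -/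
noncomputable def sub {m : ℕ} {τ : Type} (P : MvPolynomial (Fin 2 ⊕ Fin m) ℤ)
    (u v : MvPolynomial τ ℤ) (ι : Fin m → τ) : MvPolynomial τ ℤ :=
  aeval (Sum.elim ![u, v] (fun i => X (ι i))) P

theorem eval_sub {m : ℕ} {τ : Type} (P : MvPolynomial (Fin 2 ⊕ Fin m) ℤ)
    (u v : MvPolynomial τ ℤ) (ι : Fin m → τ) (f : τ → ℤ) :
    eval f (sub P u v ι) = eval (Sum.elim ![eval f u, eval f v] (fun i => f (ι i))) P := by
  unfold sub
  induction P using MvPolynomial.induction_on with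
  | C a => simp
  | add p q hp hq => simp only [map_add, hp, hq]
  | mul_X p i hp =>
    simp only [map_mul, hp, aeval_X, eval_X]
    congr 1
    rcases i with i | i
    · fin_cases i <;> simp
    · simp

theorem mem_Sol_iff {m : ℕ} (P : MvPolynomial (Fin 2 ⊕ Fin m) ℤ) (x y : ℕ) (w : Fin m → ℕ)
    (x' y' : ℤ) (hx : x' = x) (hy : y' = y) :
    eval (Sum.elim ![x', y'] (fun i => (w i : ℤ))) P = 0 ↔ w ∈ Sol P ![x, y] := by
  unfold Sol
  have : Sum.elim ![x', y'] (fun i => (w i : ℤ))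
      = Sum.elim (fun i => ((![x, y] i : ℕ) : ℤ)) (fun j => (w j : ℤ)) := by
    funext s
    rcases s with i | j
    · fin_cases i <;> simp [hx, hy]
    · simp
  rw [this]
  rfl

theorem four_sq (x y z u : ℤ) : x ^ 2 + y ^ 2 + z ^ 2 + u ^ 2 = 0 ↔ x = 0 ∧ y = 0 ∧ z = 0 ∧ u = 0 := by
  constructor
  · intro h
    have hx := sq_nonneg x
    have hy := sq_nonneg y
    have hz := sq_nonneg z
    have hu := sq_nonneg u
    refine ⟨?_, ?_, ?_, ?_⟩ <;> exact pow_eq_zero_iff (two_ne_zero) |>.1 (by linarith)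
  · rintro ⟨rfl, rfl, rfl, rfl⟩
    norm_num

end Vale.Agent.P345W
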